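import Vale.Agent.P045h24.M0

namespace Vale.Agent.P045h24

theorem dig_lt (i u : ℕ) : dig i u < 9 := Nat.mod_lt _ (by norm_num)

theorem bitOf_eq (m u : ℕ) : bitOf m u = m.testBit u := by
  unfold bitOf
  rw [Nat.testBit]
  have h : Nat.land (Nat.shiftRight m u) 1 = (m >>> u) % 2 := Nat.and_one_is_mod _
  rw [h]
  have h2 : (1 &&& m >>> u) = (m >>> u) % 2 := by rw [Nat.and_comm]; exact Nat.and_one_is_mod _
  rw [h2]
  have := Nat.mod_lt (m >>> u) (show 2 > 0 by norm_num)
  generalize (m >>> u) % 2 = x at *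
  interval_cases x <;> decide

theorem tb_lor (a b w : ℕ) : (Nat.lor a b).testBit w = (a.testBit w || b.testBit w) :=
  Nat.testBit_or a b w

theorem tb_land (a b w : ℕ) : (Nat.land a b).testBit w = (a.testBit w && b.testBit w) :=
  Nat.testBit_and a b w

theorem tb_xor (a b w : ℕ) : (Nat.xor a b).testBit w = ((a.testBit w) ^^ (b.testBit w)) :=
  Nat.testBit_xor a b w

theorem tb_rep (A M w : ℕ) : (rep A M).testBit w = (A.testBit w && !M.testBit w) := by
  unfold rep
  rw [tb_xor, tb_land]
  cases A.testBit w <;> cases M.testBit w <;> rfl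

theorem tb_box (V a b c d w : ℕ) : (box V a b c d).testBit w =
    (V.testBit w && a.testBit w && ((b.testBit w && c.testBit w) && d.testBit w)) := by
  unfold box
  simp only [tb_land]

/-- The patterns for label `0`. -/
theorem Zt_check : ∀ a < 81, ∀ b < 81, ∀ i < 4,
    (Zt i).testBit (a + 81 * b) = decide (dig i (a + 81 * b) = 0) := by
  decide +kernel

theorem Zt_spec {i w : ℕ} (hi : i < 4) (hw : w < NN) : (Zt i).testBit w = decide (dig i w = 0) := by
  have h := Zt_check (w % 81) (Nat.mod_lt _ (by norm_num)) (w / 81)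
    (by have : w < 6561 := hw
        omega) i hi
  rwa [Nat.mod_add_div] at h

theorem dig_eq (i u : ℕ) : dig i u = u / 9 ^ i % 9 := rfl

theorem Hv_spec {i l w : ℕ} (hi : i < 4) (hl : l < 9) (hw : w < NN) :
    (Hv i l).testBit w = decide (dig i w = l) := by
  have hP : 0 < 9 ^ i := by positivity
  have hs : Hv i l = Zt i <<< (l * 9 ^ i) := rfl
  rw [hs, Nat.testBit_shiftLeft]
  by_cases hws : w ≥ l * 9 ^ i
  · have hq : l ≤ w / 9 ^ i := by
      rw [Nat.le_div_iff_mul_le hP]; exact hws
    have hd : (w - l * 9 ^ i) / 9 ^ i = w / 9 ^ i - l := by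
      rw [mul_comm l]; exact Nat.sub_mul_div _ _ _
    have hz := Zt_spec (w := w - l * 9 ^ i) hi (lt_of_le_of_lt (Nat.sub_le _ _) hw)
    rw [hz]
    have hb : decide (w ≥ l * 9 ^ i) = true := decide_eq_true hws
    rw [hb, Bool.true_and]
    refine decide_eq_decide.mpr ?_
    rw [dig_eq, dig_eq, hd]
    omega
  · have hq : w / 9 ^ i < l := by
      rw [Nat.div_lt_iff_lt_mul hP]; omega
    have hb : decide (w ≥ l * 9 ^ i) = false := decide_eq_false hws
    rw [hb, Bool.false_and]
    symm
    refine decide_eq_false ?_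
    rw [dig_eq]
    have := Nat.mod_le (w / 9 ^ i) 9
    omega

/-- Two coded edges are disjoint. -/
def Dj (a b : ℕ) : Prop := ∀ i < 4, dig i a ≠ dig i b

theorem hit_spec {u w : ℕ} (hw : w < NN) : (hit u).testBit w = true ↔ ¬ Dj u w := by
  unfold hit Dj
  simp only [tb_lor, Hv_spec (show 0 < 4 by norm_num) (dig_lt _ _) hw,
    Hv_spec (show 1 < 4 by norm_num) (dig_lt _ _) hw,
    Hv_spec (show 2 < 4 by norm_num) (dig_lt _ _) hw,
    Hv_spec (show 3 < 4 by norm_num) (dig_lt _ _) hw]
  simp only [Bool.or_eq_true, decide_eq_true_eq, not_forall]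
  constructor
  · rintro ((h | h) | (h | h))
    · exact ⟨0, by norm_num, fun h' => h' h.symm⟩
    · exact ⟨1, by norm_num, fun h' => h' h.symm⟩
    · exact ⟨2, by norm_num, fun h' => h' h.symm⟩
    · exact ⟨3, by norm_num, fun h' => h' h.symm⟩
  · rintro ⟨i, hi, h⟩
    have h' : dig i w = dig i u := by
      by_contra hne
      exact h (fun h2 => hne h2.symm)
    interval_cases i
    · exact Or.inl (Or.inl h')
    · exact Or.inl (Or.inr h')
    · exact Or.inr (Or.inl h')
    · exact Or.inr (Or.inr h')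

end Vale.Agent.P045h24
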