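import Vale.Agent.P045h24.Sound

set_option linter.unusedVariables false

open scoped Classical

namespace Vale.Agent.P045h24

universe u

variable {α : Type u}

/-- From the won position of two disjoint edges to the bound on the covering number. -/
theorem cover_of_root (hroot : WA.{u} [820, 0]) (H : Set (Fin 4 → α)) (h3 : NoThree H) :
    HasCover H := by
  by_cases hex : ∃ e ∈ H, ∃ f ∈ H, ∀ i, e i ≠ f i
  · obtain ⟨e, he, f, hf, hef⟩ := hex
    refine hroot α H h3 (fun i l => if l = 0 then e i else f i) ?_
    have hn : ∀ i, nS [820, 0] i = 2 := by
      intro i
      fin_cases i <;> rfl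
    constructor
    · intro i a b ha hb hab
      rw [hn] at ha hb
      interval_cases a <;> interval_cases b
      · rfl
      · exact absurd hab (hef i)
      · exact absurd hab.symm (hef i)
      · rfl
    · intro u hu
      have hd0 : ∀ i : Fin 4, dig i 0 = 0 := by
        intro i; fin_cases i <;> rfl
      have hd1 : ∀ i : Fin 4, dig i 820 = 1 := by
        intro i; fin_cases i <;> rfl
      rcases List.mem_cons.mp hu with rfl | hu'
      · refine ⟨?_, fun i => by rw [hn, hd1]; norm_num⟩
        have : edgeOf (fun i l => if l = 0 then e i else f i) 820 = f := by
          funext i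
          simp only [edgeOf, hd1]
          simp
        rw [this]; exact hf
      · have hu0 : u = 0 := by simpa using hu'
        subst hu0
        refine ⟨?_, fun i => by rw [hn, hd0]; norm_num⟩
        have : edgeOf (fun i l => if l = 0 then e i else f i) 0 = e := by
          funext i
          simp only [edgeOf, hd0]
          simp
        rw [this]; exact he
  · by_cases hne : ∃ e, e ∈ H
    · obtain ⟨e, he⟩ := hne
      refine ⟨Finset.univ.image (fun i => (i, e i)), ?_, ?_⟩
      · refine le_trans Finset.card_image_le ?_
        simp
      · intro f hf
        by_contra hno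
        apply hex
        refine ⟨e, he, f, hf, fun i hi => hno ⟨i, ?_⟩⟩
        rw [← hi]
        exact Finset.mem_image_of_mem _ (Finset.mem_univ i)
    · refine ⟨∅, by simp, fun e he => absurd ⟨e, he⟩ hne⟩

end Vale.Agent.P045h24
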