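import Vale.Agent.P045h24.Bits

set_option linter.unusedVariables false

open scoped Classical

namespace Vale.Agent.P045h24

universe u

variable {α : Type u}

/-- Three pairwise disjoint edges do not exist. -/
def NoThree (H : Set (Fin 4 → α)) : Prop :=
  ∀ e ∈ H, ∀ f ∈ H, ∀ g ∈ H,
    ¬ ((∀ i, e i ≠ f i) ∧ (∀ i, e i ≠ g i) ∧ (∀ i, f i ≠ g i))

/-- The hypergraph has a vertex cover with at most six vertices. -/
def HasCover (H : Set (Fin 4 → α)) : Prop :=
  ∃ C : Finset (Fin 4 × α), C.card ≤ 6 ∧ ∀ e ∈ H, ∃ i, (i, e i) ∈ C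

/-- The edge coded by `u` under the labelling `φ`. -/
def edgeOf (φ : Fin 4 → ℕ → α) (u : ℕ) : Fin 4 → α := fun i => φ i (dig i u)

/-- `φ` embeds the position: labels below `n` are mapped injectively and the coded edges use only
these labels and are mapped to edges. -/
def Emb (H : Set (Fin 4 → α)) (φ : Fin 4 → ℕ → α) (n : Fin 4 → ℕ) (S : List ℕ) : Prop :=
  (∀ i a b, a < n i → b < n i → φ i a = φ i b → a = b) ∧
    ∀ u ∈ S, edgeOf φ u ∈ H ∧ ∀ i : Fin 4, dig i u < n i

/-- The number of labels after adding the coded edge `u`. -/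
def nx (n : Fin 4 → ℕ) (u : ℕ) : Fin 4 → ℕ := fun i => if dig i u = n i then n i + 1 else n i

/-- The numbers of labels of a list of coded edges. -/
def nS : List ℕ → Fin 4 → ℕ
  | [] => fun _ => 0
  | u :: S => nx (nS S) u

/-- The position is won: any embedding into the hypergraph gives a small cover. -/
def Win (H : Set (Fin 4 → α)) (S : List ℕ) : Prop :=
  ∀ φ, Emb H φ (nS S) S → HasCover H

/-- No pair of edges of the position forms three pairwise disjoint edges with `w`. -/
def Free (S : List ℕ) (w : ℕ) : Prop :=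
  ∀ a ∈ S, ∀ b ∈ S, ¬ (Dj a b ∧ Dj a w ∧ Dj b w)

theorem dig_enc0 (a b c d : ℕ) (ha : a < 9) (hb : b < 9) (hc : c < 9) (hd : d < 9) :
    dig 0 (a + 9 * b + 81 * c + 729 * d) = a := by
  rw [dig_eq]; omega

theorem dig_enc1 (a b c d : ℕ) (ha : a < 9) (hb : b < 9) (hc : c < 9) (hd : d < 9) :
    dig 1 (a + 9 * b + 81 * c + 729 * d) = b := by
  rw [dig_eq]; norm_num; omega

theorem dig_enc2 (a b c d : ℕ) (ha : a < 9) (hb : b < 9) (hc : c < 9) (hd : d < 9) :
    dig 2 (a + 9 * b + 81 * c + 729 * d) = c := by
  rw [dig_eq]; norm_num; omega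

theorem dig_enc3 (a b c d : ℕ) (ha : a < 9) (hb : b < 9) (hc : c < 9) (hd : d < 9) :
    dig 3 (a + 9 * b + 81 * c + 729 * d) = d := by
  rw [dig_eq]; norm_num; omega

/-- Every choice of labels below twelve is coded by some edge. -/
theorem exists_code (l : Fin 4 → ℕ) (hl : ∀ i, l i < 9) :
    ∃ w, w < NN ∧ ∀ i : Fin 4, dig i w = l i := by
  refine ⟨l 0 + 9 * l 1 + 81 * l 2 + 729 * l 3, ?_, ?_⟩
  · have h0 := hl 0
    have h1 := hl 1
    have h2 := hl 2
    have h3 := hl 3
    show _ < 6561
    omega
  · intro i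
    fin_cases i
    · exact dig_enc0 _ _ _ _ (hl _) (hl _) (hl _) (hl _)
    · exact dig_enc1 _ _ _ _ (hl _) (hl _) (hl _) (hl _)
    · exact dig_enc2 _ _ _ _ (hl _) (hl _) (hl _) (hl _)
    · exact dig_enc3 _ _ _ _ (hl _) (hl _) (hl _) (hl _)

/-- The soundness of one move: if every edge outside the cover candidates that is allowed by the
mask has a won child, then the position is won.  The candidates are the vertices `F j`, `j < 6`
that are kept by `keep`. -/
theorem win_of_replies (H : Set (Fin 4 → α)) (h3 : NoThree H) (S : List ℕ)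
    (hn : ∀ i, nS S i ≤ 8) (cv : ℕ → Fin 4 × ℕ)
    (hch : ∀ w < NN, Free S w → (∀ i : Fin 4, dig i w ≤ nS S i) →
      (∀ j < 6, (cv j).2 < nS S (cv j).1 → dig (cv j).1 w ≠ (cv j).2) → Win H (w :: S)) :
    Win H S := by
  intro φ hφ
  by_contra hno
  -- the six vertices
  let F : ℕ → Fin 4 × α := fun j => ((cv j).1, φ (cv j).1 (cv j).2)
  let C : Finset (Fin 4 × α) :=
    ((Finset.range 6).filter (fun j => (cv j).2 < nS S (cv j).1)).image F
  have hCc : C.card ≤ 6 := by
    refine le_trans Finset.card_image_le ?_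
    refine le_trans (Finset.card_filter_le _ _) ?_
    simp
  obtain ⟨e, heH, he⟩ : ∃ e ∈ H, ∀ i, (i, e i) ∉ C := by
    by_contra hall
    apply hno
    refine ⟨C, hCc, ?_⟩
    intro e he
    by_contra hh
    exact hall ⟨e, he, fun i hi => hh ⟨i, hi⟩⟩
  -- the labels of e
  have hlab : ∀ i, ∃ l, l ≤ nS S i ∧ (l < nS S i → φ i l = e i) ∧
      (l = nS S i → ∀ a < nS S i, φ i a ≠ e i) := by
    intro i
    by_cases hex : ∃ a < nS S i, φ i a = e i
    · obtain ⟨a, ha, hae⟩ := hex
      exact ⟨a, ha.le, fun _ => hae, fun h => absurd h ha.ne⟩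
    · push Not at hex
      exact ⟨nS S i, le_rfl, fun h => absurd h (lt_irrefl _), fun _ => hex⟩
  choose lab hlab1 hlab2 hlab3 using hlab
  obtain ⟨w, hwN, hw⟩ := exists_code lab (fun i => by have := hlab1 i; have := hn i; omega)
  have hdig : ∀ i : Fin 4, dig i w = lab i := hw
  -- the new labelling
  let φ' : Fin 4 → ℕ → α := fun i l => if l = nS S i then e i else φ i l
  have hφ'old : ∀ i a, a < nS S i → φ' i a = φ i a := fun i a ha => by
    simp only [φ']
    rw [if_neg ha.ne]
  have hφ'w : ∀ i, φ' i (lab i) = e i := fun i => by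
    simp only [φ']
    by_cases h : lab i = nS S i
    · rw [if_pos h]
    · rw [if_neg h]
      exact hlab2 i (lt_of_le_of_ne (hlab1 i) h)
  -- the new edge is a legal reply
  have hfree : Free S w := by
    intro a ha b hb ⟨hab, haw, hbw⟩
    have hEa := (hφ.2 a ha)
    have hEb := (hφ.2 b hb)
    have hdisj : ∀ a ∈ S, Dj a w → ∀ i, edgeOf φ a i ≠ e i := by
      intro a ha haw i hi
      have hEa := (hφ.2 a ha).2 i
      have hne := haw i i.2
      by_cases hl : lab i = nS S i
      · exact hlab3 i hl _ hEa hi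
      · have hl' := lt_of_le_of_ne (hlab1 i) hl
        have h2 := hlab2 i hl'
        have := hφ.1 i _ _ hEa hl' (hi.trans h2.symm)
        exact hne (by rw [hdig]; exact this)
    refine h3 _ hEa.1 _ hEb.1 _ heH ⟨?_, hdisj a ha haw, hdisj b hb hbw⟩
    intro i hi
    exact hab i i.2 (hφ.1 i _ _ (hEa.2 i) (hEb.2 i) hi)
  have hav : ∀ j < 6, (cv j).2 < nS S (cv j).1 → dig (cv j).1 w ≠ (cv j).2 := by
    intro j hj hlt heq
    have hc : F j ∈ C := Finset.mem_image_of_mem F
      (Finset.mem_filter.mpr ⟨Finset.mem_range.mpr hj, hlt⟩)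
    apply he (cv j).1
    have hd : lab (cv j).1 = (cv j).2 := by rw [← hdig]; exact heq
    have : φ (cv j).1 (cv j).2 = e (cv j).1 := by
      rw [← hd]; exact hlab2 _ (by rw [hd]; exact hlt)
    have hFj : F j = ((cv j).1, e (cv j).1) := by
      simp only [F]; rw [this]
    rw [← hFj]; exact hc
  have hwin := hch w hwN hfree (fun i => by rw [hdig]; exact hlab1 i) hav
  refine hno (hwin φ' ?_)
  constructor
  · -- injectivity
    intro i a b ha hb hab
    have hnx : nS (w :: S) i = if lab i = nS S i then nS S i + 1 else nS S i := by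
      show (if dig i w = nS S i then nS S i + 1 else nS S i) = _
      rw [hdig]
    rw [hnx] at ha hb
    by_cases hl : lab i = nS S i
    · rw [if_pos hl] at ha hb
      by_cases ha' : a = nS S i
      · by_cases hb' : b = nS S i
        · rw [ha', hb']
        · have hb2 : b < nS S i := by omega
          exfalso
          rw [hφ'old i b hb2] at hab
          have : φ' i a = e i := by simp only [φ']; rw [if_pos ha']
          rw [this] at hab
          exact hlab3 i hl b hb2 hab.symm
      · have ha2 : a < nS S i := by omega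
        by_cases hb' : b = nS S i
        · exfalso
          rw [hφ'old i a ha2] at hab
          have : φ' i b = e i := by simp only [φ']; rw [if_pos hb']
          rw [this] at hab
          exact hlab3 i hl a ha2 hab
        · have hb2 : b < nS S i := by omega
          rw [hφ'old i a ha2, hφ'old i b hb2] at hab
          exact hφ.1 i a b ha2 hb2 hab
    · rw [if_neg hl] at ha hb
      rw [hφ'old i a ha, hφ'old i b hb] at hab
      exact hφ.1 i a b ha hb hab
  · intro u hu
    have hnx : ∀ i, nS S i ≤ nS (w :: S) i := by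
      intro i
      show _ ≤ (if dig i w = nS S i then nS S i + 1 else nS S i)
      split_ifs <;> omega
    rcases List.mem_cons.mp hu with rfl | hu'
    · constructor
      · have : edgeOf φ' u = e := by
          funext i
          show φ' i (dig i u) = e i
          rw [hdig]; exact hφ'w i
        rw [this]; exact heH
      · intro i
        show dig i u < (if dig i u = nS S i then nS S i + 1 else nS S i)
        by_cases hh : dig i u = nS S i
        · rw [if_pos hh]; omega
        · rw [if_neg hh]
          have := hlab1 i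
          rw [hdig] at hh ⊢
          omega
    · have hE := hφ.2 u hu'
      constructor
      · have : edgeOf φ' u = edgeOf φ u := by
          funext i
          exact hφ'old i _ (hE.2 i)
        rw [this]; exact hE.1
      · intro i
        exact lt_of_lt_of_le (hE.2 i) (hnx i)

end Vale.Agent.P045h24
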