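import Vale.Agent.P045h24.Cons

namespace Vale.Agent.P045h24

/-- The set of coded edges with label `0` in coordinate `i`. -/
noncomputable def Zt (i : ℕ) : ℕ :=
  Nat.rec (motive := fun _ => ℕ) Z0 (fun a _ =>
    Nat.rec (motive := fun _ => ℕ) Z1 (fun b _ =>
      Nat.rec (motive := fun _ => ℕ) Z2 (fun _ _ => Z3) b) a) i

/-- The set of coded edges with label `l` in coordinate `i`. -/
noncomputable def Hv (i l : ℕ) : ℕ := Nat.shiftLeft (Zt i) (Nat.mul l (Nat.pow 9 i))

/-- The coded edges that meet the coded edge `u`. -/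
noncomputable def hit (u : ℕ) : ℕ :=
  Nat.lor (Nat.lor (Hv 0 (dig 0 u)) (Hv 1 (dig 1 u))) (Nat.lor (Hv 2 (dig 2 u)) (Hv 3 (dig 3 u)))

/-- Whether bit `u` of `m` is set. -/
def bitOf (m u : ℕ) : Bool := Nat.beq (Nat.land (Nat.shiftRight m u) 1) 1

/-- A list of coded edges with their masks. -/
inductive EL
  | nil
  | cons (u m : ℕ) (tl : EL)

/-- A stack frame: replies left, valid edges, and for each coordinate the number of labels with
the mask of labels up to that number, and the edges of the position. -/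
inductive Fr
  | mk (R V n0 L0 n1 L1 n2 L2 n3 L3 : ℕ) (E : EL)

/-- The stack of frames. -/
inductive Stk
  | fail
  | nil
  | cons (f : Fr) (tl : Stk)

/-- Restricts the valid edges after adding `u` with mask `m`. -/
noncomputable def vfold (u m : ℕ) (E : EL) : ℕ → ℕ :=
  EL.rec (motive := fun _ => ℕ → ℕ) (fun V => V)
    (fun _ m' _ ih V =>
      Bool.rec (motive := fun _ => ℕ) (st (Nat.land V (Nat.lor m m')) ih) (ih V) (bitOf m' u)) E

/-- Updates a coordinate: `k` gets the new number of labels and the new mask. -/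
noncomputable def upd {α : Type} (e : α) (i d n L : ℕ) (k : ℕ → ℕ → α) : α :=
  Bool.rec (motive := fun _ => α) (k n L)
    (st (Nat.succ n) fun n' =>
      Bool.rec (motive := fun _ => α) e
        (st (Nat.lor L (Hv i n')) fun L' => k n' L') (Nat.ble n' 8))
    (Nat.beq d n)

/-- The number of labels of coordinate `i`. -/
noncomputable def nOf (i n0 n1 n2 n3 : ℕ) : ℕ :=
  Nat.rec (motive := fun _ => ℕ) n0 (fun a _ =>
    Nat.rec (motive := fun _ => ℕ) n1 (fun b _ =>
      Nat.rec (motive := fun _ => ℕ) n2 (fun _ _ => n3) b) a) i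

/-- Adds the vertex coded by `v` to the mask `M`, if its label exists. -/
noncomputable def vm (v n0 n1 n2 n3 M : ℕ) : ℕ :=
  Bool.rec (motive := fun _ => ℕ) M
    (Nat.lor M (Hv (Nat.land v 3) (Nat.shiftRight v 2)))
    (Nat.blt (Nat.shiftRight v 2) (nOf (Nat.land v 3) n0 n1 n2 n3))

/-- Vertex number `j` of a token. -/
def tv (t j : ℕ) : ℕ := Nat.land (Nat.shiftRight t (Nat.mul 6 j)) 63

/-- The mask of all six vertices of a token. -/
noncomputable def cm (t n0 n1 n2 n3 : ℕ) : ℕ :=
  vm (tv t 0) n0 n1 n2 n3 (vm (tv t 1) n0 n1 n2 n3 (vm (tv t 2) n0 n1 n2 n3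
    (vm (tv t 3) n0 n1 n2 n3 (vm (tv t 4) n0 n1 n2 n3 (vm (tv t 5) n0 n1 n2 n3 0)))))

/-- The replies in `A` that the token misses. -/
noncomputable def rep (A M : ℕ) : ℕ := Nat.xor A (Nat.land A M)

/-- The valid edges inside the box of existing labels and one new label. -/
noncomputable def box (V L0 L1 L2 L3 : ℕ) : ℕ :=
  Nat.land (Nat.land V L0) (Nat.land (Nat.land L1 L2) L3)

/-- The frame after adding the coded edge `u`, answered by the token `t`, on top of `tl`. -/
noncomputable def push (t u : ℕ) (V n0 L0 n1 L1 n2 L2 n3 L3 : ℕ) (E : EL) (tl : Stk) : Stk :=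
  Bool.rec (motive := fun _ => Stk) .fail
    (st (hit u) fun m =>
    st (vfold u m E V) fun V' =>
    upd .fail 0 (dig 0 u) n0 L0 fun n0' L0' =>
    upd .fail 1 (dig 1 u) n1 L1 fun n1' L1' =>
    upd .fail 2 (dig 2 u) n2 L2 fun n2' L2' =>
    upd .fail 3 (dig 3 u) n3 L3 fun n3' L3' =>
    st (rep (box V' L0' L1' L2' L3') (cm t n0' n1' n2' n3')) fun R' =>
      .cons (.mk R' V' n0' L0' n1' L1' n2' L2' n3' L3' (.cons u m E)) tl)
    (Nat.blt u NN)

/-- One step of the machine: frames with no replies left are dropped, and then the reply named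
by the token `t` is removed from the top frame and answered by the six vertices of the token. -/
noncomputable def step (t : ℕ) (s : Stk) : Stk :=
  Stk.rec (motive := fun _ => Stk) .fail .nil
    (fun f tl ih =>
      Fr.rec (motive := fun _ => Stk)
        (fun R V n0 L0 n1 L1 n2 L2 n3 L3 E =>
          Bool.rec (motive := fun _ => Stk)
            (st (Nat.shiftRight t 36) fun u =>
              st (Nat.xor R (Nat.shiftLeft 1 u)) fun R' =>
                push t u V n0 L0 n1 L1 n2 L2 n3 L3 E
                  (.cons (.mk R' V n0 L0 n1 L1 n2 L2 n3 L3 E) tl))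
            ih (Nat.beq R 0)) f) s

/-- Strict application for stacks. -/
noncomputable def fS {α : Type} (s : Stk) (g : Stk → α) : α :=
  Stk.rec (motive := fun _ => α) (g .fail) (g .nil) (fun f tl _ => g (.cons f tl)) s

/-- Balanced iteration: applies `f i, f (i+1), ..., f (i + 2^j - 1)` in order. -/
noncomputable def walk (f : ℕ → Stk → Stk) (j : ℕ) : ℕ → Stk → Stk :=
  Nat.rec (motive := fun _ => ℕ → Stk → Stk)
    (fun i s => f i s)
    (fun j' ih i s => fS (ih i s) fun s' => ih (Nat.add i (Nat.pow 2 j')) s') j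

/-- Token `i` of a chunk (49 bits per token). -/
def token (ch i : ℕ) : ℕ := Nat.land (Nat.shiftRight ch (Nat.mul 49 i)) 562949953421311

/-- Runs the `64` tokens of chunk `ch`. -/
noncomputable def runChunk (ch : ℕ) (s : Stk) : Stk :=
  walk (fun i s' => step (token ch i) s') 6 0 s

/-- Chunk `c` of the data literal `D` (`3136` bits per chunk). -/
def chunk (D c : ℕ) : ℕ :=
  Nat.land (Nat.shiftRight D (Nat.mul 3136 c)) (Nat.sub (Nat.shiftLeft 1 3136) 1)

/-- Runs `2^j` chunks of `D`. -/
noncomputable def run (D j : ℕ) (s : Stk) : Stk :=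
  walk (fun c s' => runChunk (chunk D c) s') j 0 s

/-- The empty position. -/
noncomputable def emptyFr : Fr :=
  .mk 0 (Nat.sub (Nat.shiftLeft 1 NN) 1) 0 (Hv 0 0) 0 (Hv 1 0) 0 (Hv 2 0) 0 (Hv 3 0) .nil

/-- Adds the coded edge `u`, answered by the token `t`, to the top frame of a stack. -/
noncomputable def addTop (t u : ℕ) (s : Stk) : Stk :=
  Stk.rec (motive := fun _ => Stk) .fail .fail
    (fun f _ _ => Fr.rec (motive := fun _ => Stk) (fun _ V n0 L0 n1 L1 n2 L2 n3 L3 E =>
      push t u V n0 L0 n1 L1 n2 L2 n3 L3 E .nil) f) s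

/-- The stack with one frame holding the position of a list of coded edges. -/
noncomputable def mkS (S : List ℕ) : Stk :=
  List.rec (motive := fun _ => Stk) (.cons emptyFr .nil) (fun u _ ih => fS ih (addTop 0 u)) S

/-- Clears bit `u` of `R`. -/
noncomputable def clr (R u : ℕ) : ℕ := Nat.xor R (Nat.land R (Nat.shiftLeft 1 u))

/-- Clears the bits in the list. -/
noncomputable def clrL (L : List ℕ) : ℕ → ℕ :=
  List.rec (motive := fun _ => ℕ → ℕ) (fun R => R) (fun u _ ih R => st (clr R u) ih) L

/-- Removes the replies in the list from the top frame of a stack. -/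
noncomputable def clrTop (L : List ℕ) (s : Stk) : Stk :=
  Stk.rec (motive := fun _ => Stk) .fail .fail
    (fun f tl _ => Fr.rec (motive := fun _ => Stk) (fun R V n0 L0 n1 L1 n2 L2 n3 L3 E =>
      .cons (.mk (clrL L R) V n0 L0 n1 L1 n2 L2 n3 L3 E) tl) f) s

/-- The first stack for a position `u :: S`, where the replies in `L` are treated elsewhere. -/
noncomputable def start (t u : ℕ) (S L : List ℕ) : Stk :=
  fS (mkS S) fun s => fS (addTop t u s) (clrTop L)

/-- Whether a stack is empty. -/
noncomputable def isNil (s : Stk) : Bool :=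
  Stk.rec (motive := fun _ => Bool) false true (fun _ _ _ => false) s

/-- The check made by the kernel: from the position `u :: S`, with the replies in `L` treated
elsewhere, the tokens of `D` lead to the empty stack. -/
noncomputable def chk (u : ℕ) (S L : List ℕ) (D j : ℕ) : Bool :=
  isNil (run (Nat.shiftRight D 49) j (start (Nat.land D 562949953421311) u S L))

end Vale.Agent.P045h24
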