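import Vale.Agent.P045h24.Game

set_option linter.unusedVariables false

open scoped Classical

namespace Vale.Agent.P045h24

universe u

variable {α : Type u}

/-- The coded edges of a list. -/
def EL.codes : EL → List ℕ
  | .nil => []
  | .cons u _ tl => u :: tl.codes

/-- The masks of the list are correct. -/
def EL.Good : EL → Prop
  | .nil => True
  | .cons u m tl => u < NN ∧ m = hit u ∧ tl.Good

/-- The invariant of a frame, apart from the replies left. -/
def Wf (V n0 L0 n1 L1 n2 L2 n3 L3 : ℕ) (E : EL) : Prop :=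
  E.Good ∧ (∀ i : Fin 4, nS E.codes i = nOf i n0 n1 n2 n3) ∧
    (∀ i : Fin 4, nOf i n0 n1 n2 n3 ≤ 8) ∧
    (∀ w < NN, Free E.codes w → V.testBit w = true) ∧
    (∀ i : Fin 4, ∀ w < NN, dig i w ≤ nOf i n0 n1 n2 n3 → (nOf i L0 L1 L2 L3).testBit w = true)

/-- All the replies left of a frame lead to won positions. -/
def Fr.Done (H : Set (Fin 4 → α)) : Fr → Prop
  | .mk R _ _ _ _ _ _ _ _ _ E => ∀ w < NN, R.testBit w = true → Win H (w :: E.codes)

/-- The invariant of a frame. -/
def Fr.Wf : Fr → Prop
  | .mk _ V n0 L0 n1 L1 n2 L2 n3 L3 E => Vale.Agent.P045h24.Wf V n0 L0 n1 L1 n2 L2 n3 L3 E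

/-- The invariant of the stack: if the replies left of the frames are settled one after the other,
the goal `G` follows. -/
def Stk.Ok (H : Set (Fin 4 → α)) (G : Prop) : Stk → Prop
  | .fail => True
  | .nil => G
  | .cons f tl => f.Wf ∧ (f.Done H → tl.Ok H G)

theorem vm_spec {v n0 n1 n2 n3 M w : ℕ} (hb : ∀ i : Fin 4, nOf i n0 n1 n2 n3 ≤ 8) (hw : w < NN)
    (h : (vm v n0 n1 n2 n3 M).testBit w = true) :
    M.testBit w = true ∨ (Nat.shiftRight v 2 < nOf (Nat.land v 3) n0 n1 n2 n3 ∧
      dig (Nat.land v 3) w = Nat.shiftRight v 2) := by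
  have hi : Nat.land v 3 < 4 := by
    have : v &&& 3 ≤ 3 := Nat.and_le_right
    exact Nat.lt_succ_of_le this
  unfold vm at h
  cases hc : Nat.blt (Nat.shiftRight v 2) (nOf (Nat.land v 3) n0 n1 n2 n3) with
  | false =>
    rw [hc] at h
    exact Or.inl h
  | true =>
    rw [hc] at h
    have h' : (Nat.lor M (Hv (Nat.land v 3) (Nat.shiftRight v 2))).testBit w = true := h
    rw [tb_lor, Bool.or_eq_true] at h'
    have hlt : Nat.shiftRight v 2 < nOf (Nat.land v 3) n0 n1 n2 n3 := by
      have : Nat.ble (Nat.succ (Nat.shiftRight v 2)) (nOf (Nat.land v 3) n0 n1 n2 n3) = true := hc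
      exact Nat.le_of_ble_eq_true this
    rcases h' with h' | h'
    · exact Or.inl h'
    · right
      refine ⟨hlt, ?_⟩
      have h8 := hb ⟨_, hi⟩
      have h8' : nOf (Nat.land v 3) n0 n1 n2 n3 ≤ 8 := h8
      rw [Hv_spec hi (by omega) hw] at h'
      exact of_decide_eq_true h'

/-- The vertex with code number `j` of a token. -/
def cv (t j : ℕ) : Fin 4 × ℕ :=
  (⟨Nat.land (tv t j) 3, by
    have : tv t j &&& 3 ≤ 3 := Nat.and_le_right
    exact Nat.lt_succ_of_le this⟩, Nat.shiftRight (tv t j) 2)

theorem cm_spec {t n0 n1 n2 n3 w : ℕ} (hb : ∀ i : Fin 4, nOf i n0 n1 n2 n3 ≤ 8) (hw : w < NN)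
    (hav : ∀ j < 6, (cv t j).2 < nOf (cv t j).1 n0 n1 n2 n3 → dig (cv t j).1 w ≠ (cv t j).2) :
    (cm t n0 n1 n2 n3).testBit w = false := by
  by_contra hne
  have h : (cm t n0 n1 n2 n3).testBit w = true := by
    cases h2 : (cm t n0 n1 n2 n3).testBit w with
    | false => exact absurd h2 hne
    | true => rfl
  have key : ∀ j < 6, ∀ M, (vm (tv t j) n0 n1 n2 n3 M).testBit w = true → M.testBit w = true := by
    intro j hj M hM
    rcases vm_spec hb hw hM with h1 | ⟨h1, h2⟩
    · exact h1
    · exact absurd h2 (hav j hj h1)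
  unfold cm at h
  have h5 := key 0 (by norm_num) _ h
  have h4 := key 1 (by norm_num) _ h5
  have h3 := key 2 (by norm_num) _ h4
  have h2 := key 3 (by norm_num) _ h3
  have h1 := key 4 (by norm_num) _ h2
  have h0 := key 5 (by norm_num) _ h1
  simp at h0

/-- The soundness of a token. -/
theorem win_of_done (H : Set (Fin 4 → α)) (h3 : NoThree H) {t V n0 L0 n1 L1 n2 L2 n3 L3 : ℕ}
    {E : EL} (hWf : Wf V n0 L0 n1 L1 n2 L2 n3 L3 E)
    (hd : ∀ w < NN, (rep (box V L0 L1 L2 L3) (cm t n0 n1 n2 n3)).testBit w = true →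
      Win H (w :: E.codes)) : Win H E.codes := by
  obtain ⟨hG, hn, hb, hV, hL⟩ := hWf
  refine win_of_replies H h3 E.codes (fun i => by rw [hn]; exact hb i) (cv t) ?_
  intro w hw hfree hbox hav
  refine hd w hw ?_
  have hc : (cm t n0 n1 n2 n3).testBit w = false := by
    refine cm_spec hb hw ?_
    intro j hj hlt
    rw [← hn] at hlt
    exact hav j hj hlt
  rw [tb_rep, tb_box, hc, hV w hw hfree]
  have h0 := hL 0 w hw (by rw [← hn]; exact hbox 0)
  have h1 := hL 1 w hw (by rw [← hn]; exact hbox 1)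
  have h2 := hL 2 w hw (by rw [← hn]; exact hbox 2)
  have h3' := hL 3 w hw (by rw [← hn]; exact hbox 3)
  have h0' : L0.testBit w = true := h0
  have h1' : L1.testBit w = true := h1
  have h2' : L2.testBit w = true := h2
  have h3'' : L3.testBit w = true := h3'
  rw [h0', h1', h2', h3'']
  rfl

theorem vfold_spec {u w : ℕ} (hu : u < NN) (hw : w < NN) :
    ∀ (E : EL) (V : ℕ), E.Good → V.testBit w = true →
      (∀ a ∈ E.codes, Dj a u → ¬ (Dj a w ∧ Dj u w)) →
      (vfold u (hit u) E V).testBit w = true := by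
  intro E
  induction E with
  | nil => intro V _ hV _; exact hV
  | cons a m tl ih =>
    intro V hG hV hk
    obtain ⟨ha, rfl, hG'⟩ := hG
    show (Bool.rec (motive := fun _ => ℕ) (st (Nat.land V (Nat.lor (hit u) (hit a)))
      (vfold u (hit u) tl)) (vfold u (hit u) tl V) (bitOf (hit a) u)).testBit w = true
    have hk' : ∀ b ∈ tl.codes, Dj b u → ¬ (Dj b w ∧ Dj u w) :=
      fun b hb => hk b (List.mem_cons_of_mem _ hb)
    cases hc : bitOf (hit a) u with
    | true => exact ih V hG' hV hk'
    | false =>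
      refine ih _ hG' ?_ hk'
      rw [tb_land, hV, Bool.true_and, tb_lor, Bool.or_eq_true]
      rw [bitOf_eq] at hc
      have hdj : Dj a u := by
        by_contra hnd
        have := (hit_spec (u := a) hu).mpr hnd
        rw [this] at hc
        exact absurd hc (by simp)
      by_contra hno
      rw [not_or] at hno
      apply hk a (List.mem_cons_self) hdj
      constructor
      · by_contra hnd
        exact hno.2 ((hit_spec hw).mpr hnd)
      · by_contra hnd
        exact hno.1 ((hit_spec hw).mpr hnd)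

theorem upd_cases {β : Type} (P : β → Prop) {e : β} {i d n L : ℕ} {k : ℕ → ℕ → β} (hi : i < 4)
    (hn : n ≤ 8) (hL : ∀ w < NN, dig i w ≤ n → L.testBit w = true) (he : P e)
    (hk : ∀ n' L', n' = (if d = n then n + 1 else n) → n' ≤ 8 →
      (∀ w < NN, dig i w ≤ n' → L'.testBit w = true) → P (k n' L')) :
    P (upd e i d n L k) := by
  unfold upd
  cases hc : Nat.beq d n with
  | false =>
    have hne : d ≠ n := Nat.ne_of_beq_eq_false hc
    exact hk n L (by rw [if_neg hne]) hn hL
  | true =>
    have heq : d = n := Nat.eq_of_beq_eq_true hc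
    show P (st (Nat.succ n) fun n' => Bool.rec (motive := fun _ => β) e
        (st (Nat.lor L (Hv i n')) fun L' => k n' L') (Nat.ble n' 8))
    simp only [st]
    cases hc2 : Nat.ble (Nat.succ n) 8 with
    | false => exact he
    | true =>
      have hle : n + 1 ≤ 8 := Nat.le_of_ble_eq_true hc2
      refine hk _ _ (by rw [if_pos heq]) hle ?_
      intro w hw hdw
      rw [tb_lor, Bool.or_eq_true]
      by_cases h : dig i w ≤ n
      · exact Or.inl (hL w hw h)
      · right
        rw [Hv_spec hi (by omega) hw]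
        refine decide_eq_true ?_
        show dig i w = n + 1
        have : dig i w ≤ n + 1 := hdw
        omega

/-- The effect of `push`. -/
theorem push_spec (H : Set (Fin 4 → α)) (h3 : NoThree H) {t u V n0 L0 n1 L1 n2 L2 n3 L3 : ℕ}
    {E : EL} (tl : Stk) (hWf : Wf V n0 L0 n1 L1 n2 L2 n3 L3 E) :
    push t u V n0 L0 n1 L1 n2 L2 n3 L3 E tl = .fail ∨
    ∃ f, push t u V n0 L0 n1 L1 n2 L2 n3 L3 E tl = .cons f tl ∧ f.Wf ∧
      (∃ R V' n0' L0' n1' L1' n2' L2' n3' L3' m, f = .mk R V' n0' L0' n1' L1' n2' L2' n3' L3'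
        (.cons u m E)) ∧ (f.Done H → Win H (u :: E.codes)) := by
  unfold push
  cases hc : Nat.blt u NN with
  | false => exact Or.inl rfl
  | true =>
    have hu : u < NN := by
      have : Nat.ble (Nat.succ u) NN = true := hc
      exact Nat.le_of_ble_eq_true this
    obtain ⟨hG, hn, hb, hV, hL⟩ := hWf
    show _ ∨ _
    simp only [st]
    let P : Stk → Prop := fun s => s = .fail ∨ ∃ f, s = .cons f tl ∧ f.Wf ∧
      (∃ R V' n0' L0' n1' L1' n2' L2' n3' L3' m, f = .mk R V' n0' L0' n1' L1' n2' L2' n3' L3'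
        (.cons u m E)) ∧ (f.Done H → Win H (u :: E.codes))
    refine upd_cases P (i := 0) (by norm_num) (hb 0) (hL 0) (Or.inl rfl) ?_
    intro n0' L0' h0 h0b hL0
    refine upd_cases P (i := 1) (by norm_num) (hb 1) (hL 1) (Or.inl rfl) ?_
    intro n1' L1' h1 h1b hL1
    refine upd_cases P (i := 2) (by norm_num) (hb 2) (hL 2) (Or.inl rfl) ?_
    intro n2' L2' h2 h2b hL2
    refine upd_cases P (i := 3) (by norm_num) (hb 3) (hL 3) (Or.inl rfl) ?_
    intro n3' L3' h3a h3b hL3
    refine Or.inr ⟨_, rfl, ?_, ⟨_, _, _, _, _, _, _, _, _, _, _, rfl⟩, ?_⟩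
    all_goals
      have hWf' : Wf (vfold u (hit u) E V) n0' L0' n1' L1' n2' L2' n3' L3' (.cons u (hit u) E) := by
        refine ⟨⟨hu, rfl, hG⟩, ?_, ?_, ?_, ?_⟩
        · intro i
          show (if dig i u = nS E.codes i then nS E.codes i + 1 else nS E.codes i) = _
          rw [hn i]
          fin_cases i
          · exact h0.symm
          · exact h1.symm
          · exact h2.symm
          · exact h3a.symm
        · intro i
          fin_cases i
          · exact h0b
          · exact h1b
          · exact h2b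
          · exact h3b
        · intro w hw hfree
          refine vfold_spec hu hw E V hG ?_ ?_
          · refine hV w hw ?_
            intro a ha b hb'
            exact hfree a (List.mem_cons_of_mem _ ha) b (List.mem_cons_of_mem _ hb')
          · intro a ha hau ⟨haw, huw⟩
            exact hfree a (List.mem_cons_of_mem _ ha) u List.mem_cons_self ⟨hau, haw, huw⟩
        · intro i w hw
          fin_cases i
          · exact hL0 w hw
          · exact hL1 w hw
          · exact hL2 w hw
          · exact hL3 w hw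
    · exact hWf'
    · intro hD
      exact win_of_done H h3 (t := t) hWf' hD

theorem tb_two (u w : ℕ) : (Nat.shiftLeft 1 u).testBit w = decide (u = w) := by
  have : Nat.shiftLeft 1 u = 2 ^ u := by
    show 1 <<< u = 2 ^ u
    exact Nat.one_shiftLeft u
  rw [this, Nat.testBit_two_pow]

theorem step_ok (H : Set (Fin 4 → α)) (h3 : NoThree H) (G : Prop) (t : ℕ) :
    ∀ s : Stk, s.Ok H G → (step t s).Ok H G := by
  intro s
  induction s with
  | fail => intro _; trivial
  | nil => intro h; exact h
  | cons f tl ih =>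
    intro h
    cases f with
    | mk R V n0 L0 n1 L1 n2 L2 n3 L3 E =>
      obtain ⟨hW, hD⟩ := h
      cases hc : Nat.beq R 0 with
      | true =>
        have hR : R = 0 := Nat.eq_of_beq_eq_true hc
        have : step t (.cons (.mk R V n0 L0 n1 L1 n2 L2 n3 L3 E) tl) = step t tl := by
          show Bool.rec (motive := fun _ => Stk) _ _ (Nat.beq R 0) = _
          rw [hc]
          rfl
        rw [this]
        refine ih (hD ?_)
        intro w _ hw
        rw [hR] at hw
        simp at hw
      | false =>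
        have : step t (.cons (.mk R V n0 L0 n1 L1 n2 L2 n3 L3 E) tl) =
            push t (Nat.shiftRight t 36) V n0 L0 n1 L1 n2 L2 n3 L3 E
              (.cons (.mk (Nat.xor R (Nat.shiftLeft 1 (Nat.shiftRight t 36))) V n0 L0 n1 L1 n2 L2
                n3 L3 E) tl) := by
          show Bool.rec (motive := fun _ => Stk) _ _ (Nat.beq R 0) = _
          rw [hc]
          rfl
        rw [this]
        rcases push_spec H h3 (t := t) (u := Nat.shiftRight t 36)
            (.cons (.mk (Nat.xor R (Nat.shiftLeft 1 (Nat.shiftRight t 36))) V n0 L0 n1 L1 n2 L2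
                n3 L3 E) tl) hW with h1 | ⟨f, h1, hf, _, hfd⟩
        · rw [h1]; trivial
        · rw [h1]
          refine ⟨hf, fun hdone => ⟨hW, fun hdone2 => hD ?_⟩⟩
          intro w hw hRw
          by_cases hwu : Nat.shiftRight t 36 = w
          · rw [← hwu]; exact hfd hdone
          · refine hdone2 w hw ?_
            rw [tb_xor, tb_two, hRw]
            have hf2 : decide (Nat.shiftRight t 36 = w) = false := decide_eq_false hwu
            rw [hf2]
            rfl

theorem fS_eq {β : Type} (s : Stk) (g : Stk → β) : fS s g = g s := by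
  cases s <;> rfl

theorem walk_ok (P : Stk → Prop) (f : ℕ → Stk → Stk) (hf : ∀ i s, P s → P (f i s)) (j : ℕ) :
    ∀ i s, P s → P (walk f j i s) := by
  induction j with
  | zero => exact fun i s h => hf i s h
  | succ j' ih =>
    intro i s h
    show P (fS (walk f j' i s) fun s' => walk f j' (Nat.add i (Nat.pow 2 j')) s')
    rw [fS_eq]
    exact ih _ _ (ih _ _ h)

theorem run_ok (H : Set (Fin 4 → α)) (h3 : NoThree H) (G : Prop) (D j : ℕ) (s : Stk)
    (h : s.Ok H G) : (run D j s).Ok H G := by
  refine walk_ok (fun s => s.Ok H G) _ ?_ j 0 s h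
  intro c s' hs'
  exact walk_ok (fun s => s.Ok H G) _ (fun i s'' h'' => step_ok H h3 G _ s'' h'') 6 0 s' hs'

/-- The frames of `mkS`. -/
theorem mkS_spec (H : Set (Fin 4 → α)) (h3 : NoThree H) (S : List ℕ) :
    mkS S = .fail ∨ ∃ R V n0 L0 n1 L1 n2 L2 n3 L3 E,
      mkS S = .cons (.mk R V n0 L0 n1 L1 n2 L2 n3 L3 E) .nil ∧
      Wf V n0 L0 n1 L1 n2 L2 n3 L3 E ∧ E.codes = S := by
  induction S with
  | nil =>
    refine Or.inr ⟨_, _, _, _, _, _, _, _, _, _, _, rfl, ?_, rfl⟩
    refine ⟨trivial, ?_, ?_, ?_, ?_⟩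
    · intro i; fin_cases i <;> rfl
    · intro i; fin_cases i <;> simp [nOf]
    · intro w hw _
      have : Nat.shiftLeft 1 NN - 1 = 2 ^ NN - 1 := by
        have h2 : Nat.shiftLeft 1 NN = 2 ^ NN := Nat.one_shiftLeft NN
        rw [h2]
      show (Nat.shiftLeft 1 NN - 1).testBit w = true
      rw [this, Nat.testBit_two_pow_sub_one]
      exact decide_eq_true hw
    · intro i w hw hd
      have hi := i.2
      have h0 : nOf (↑i) 0 0 0 0 = 0 := by fin_cases i <;> rfl
      rw [h0] at hd
      have hd0 : dig i w = 0 := Nat.le_zero.mp hd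
      have : nOf (↑i) (Hv 0 0) (Hv 1 0) (Hv 2 0) (Hv 3 0) = Hv i 0 := by
        fin_cases i <;> rfl
      rw [this, Hv_spec hi (by norm_num) hw]
      exact decide_eq_true hd0
  | cons u S ih =>
    have hmk : mkS (u :: S) = fS (mkS S) (addTop 0 u) := rfl
    rw [hmk, fS_eq]
    rcases ih with ih | ⟨R, V, n0, L0, n1, L1, n2, L2, n3, L3, E, h1, h2, h4⟩
    · rw [ih]; exact Or.inl rfl
    · rw [h1]
      show push 0 u V n0 L0 n1 L1 n2 L2 n3 L3 E .nil = .fail ∨ _
      rcases push_spec H h3 (t := 0) (u := u) .nil h2 with h5 | ⟨f, h5, hf, ⟨R', V', a0, b0, a1, b1, a2, b2, a3, b3, m, rfl⟩, _⟩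
      · exact Or.inl h5
      · refine Or.inr ⟨_, _, _, _, _, _, _, _, _, _, _, h5, hf, ?_⟩
        show u :: E.codes = u :: S
        rw [h4]

/-- Lists of replies all leading to won positions. -/
def AllWin (H : Set (Fin 4 → α)) (S : List ℕ) : List ℕ → Prop
  | [] => True
  | v :: L => Win H (v :: S) ∧ AllWin H S L

theorem tb_clr (R u w : ℕ) : (clr R u).testBit w = (R.testBit w && !decide (u = w)) := by
  unfold clr
  rw [tb_xor, tb_land, tb_two]
  cases R.testBit w <;> simp

theorem clrL_spec (H : Set (Fin 4 → α)) (S : List ℕ) (w : ℕ) :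
    ∀ (L : List ℕ) (R : ℕ), AllWin H S L → R.testBit w = true →
      Win H (w :: S) ∨ (clrL L R).testBit w = true := by
  intro L
  induction L with
  | nil => intro R _ h; exact Or.inr h
  | cons v L ih =>
    intro R hA hR
    by_cases hv : v = w
    · left
      rw [← hv]; exact hA.1
    · have : (clrL (v :: L) R) = clrL L (clr R v) := rfl
      rw [this]
      refine ih _ hA.2 ?_
      rw [tb_clr, hR]
      simp [hv]

theorem start_ok (H : Set (Fin 4 → α)) (h3 : NoThree H) (t u : ℕ) (S L : List ℕ)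
    (hL : AllWin H (u :: S) L) : (start t u S L).Ok H (Win H (u :: S)) := by
  unfold start
  rw [fS_eq, fS_eq]
  rcases mkS_spec H h3 S with h | ⟨R, V, n0, L0, n1, L1, n2, L2, n3, L3, E, h1, h2, h4⟩
  · rw [h]; trivial
  · rw [h1]
    show (clrTop L (push t u V n0 L0 n1 L1 n2 L2 n3 L3 E .nil)).Ok H _
    rcases push_spec H h3 (t := t) (u := u) .nil h2 with h5 | ⟨f, h5, hf, ⟨R', V', a0, b0, a1, b1, a2, b2, a3, b3, m, rfl⟩, hd⟩
    · rw [h5]; trivial
    · rw [h5]
      refine ⟨hf, fun hD => ?_⟩
      rw [h4] at hd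
      refine hd ?_
      intro w hw hR
      have hcodes : (EL.cons u m E).codes = u :: S := by
        show u :: E.codes = u :: S
        rw [h4]
      rw [hcodes]
      rcases clrL_spec H (u :: S) w L R' hL hR with h6 | h6
      · exact h6
      · have := hD w hw h6
        rw [hcodes] at this
        exact this

theorem win_of_chk (H : Set (Fin 4 → α)) (h3 : NoThree H) {u : ℕ} {S L : List ℕ} {D j : ℕ}
    (hL : AllWin H (u :: S) L) (hc : chk u S L D j = true) : Win H (u :: S) := by
  have h := run_ok H h3 (Win H (u :: S)) (Nat.shiftRight D 49) j _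
    (start_ok H h3 (Nat.land D 562949953421311) u S L hL)
  unfold chk at hc
  generalize run (Nat.shiftRight D 49) j (start (Nat.land D 562949953421311) u S L) = s at *
  cases s with
  | fail => exact absurd hc (by simp [isNil])
  | nil => exact h
  | cons f tl => exact absurd hc (by simp [isNil])

/-- The position is won for all hypergraphs with no three pairwise disjoint edges. -/
def WA (S : List ℕ) : Prop :=
  ∀ (α : Type u) (H : Set (Fin 4 → α)), NoThree H → Win H S

/-- All the positions after the replies in the list are won. -/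
def AllWA (S : List ℕ) : List ℕ → Prop
  | [] => True
  | v :: L => WA.{u} (v :: S) ∧ AllWA S L

theorem AllWA.toAllWin {S : List ℕ} (H : Set (Fin 4 → α)) (h3 : NoThree H) :
    ∀ {L : List ℕ}, AllWA.{u} S L → AllWin H S L := by
  intro L
  induction L with
  | nil => intro _; trivial
  | cons v L ih => intro h; exact ⟨h.1 α H h3, ih h.2⟩

theorem WA_of_chk {u : ℕ} {S L : List ℕ} {D j : ℕ} (hL : AllWA.{u} (u :: S) L)
    (hc : chk u S L D j = true) : WA.{u} (u :: S) :=
  fun _ H h3 => win_of_chk H h3 (AllWA.toAllWin H h3 hL) hc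

end Vale.Agent.P045h24
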